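import Vale.Agent.P141.Defs

/-!
# Testing the trilinear Hilbert transform on smoothed indicator functions
-/

namespace Vale.Agent.P141

open MeasureTheory Filter Topology Set
open scoped ContDiff Manifold

/-- A smooth bump adapted to a finite set of integers. -/
theorem exists_bump (A : Finset ℤ) : ∃ (f : SchwartzMap ℝ ℂ) (g : ℝ → ℝ),
    (∀ y, f y = (g y : ℂ)) ∧ Continuous g ∧ (∀ y, 0 ≤ g y) ∧ (∀ y, g y ≤ 1) ∧
    (∀ y, ∀ a ∈ A, |y - (a : ℝ)| ≤ 1 / 2 → g y = 1) ∧
    (∀ y, g y ≠ 0 → ∃ a ∈ A, |y - (a : ℝ)| < 1) := by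
  classical
  set s : Set ℝ := ⋂ a ∈ A, {y : ℝ | 1 ≤ |y - (a : ℝ)|} with hs
  set t : Set ℝ := ⋃ a ∈ A, {y : ℝ | |y - (a : ℝ)| ≤ 1 / 2} with ht
  have hsc : IsClosed s := by
    refine isClosed_biInter fun a _ => ?_
    exact isClosed_le continuous_const (by fun_prop)
  have htc : IsClosed t := by
    refine Set.Finite.isClosed_biUnion A.finite_toSet fun a _ => ?_
    exact isClosed_le (by fun_prop) continuous_const
  have hd : Disjoint s t := by
    rw [Set.disjoint_left]
    intro y hy hy'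
    simp only [hs, ht, Set.mem_iInter, Set.mem_iUnion, Set.mem_ofPred_eq] at hy hy'
    obtain ⟨a, ha, h1⟩ := hy'
    have := hy a ha
    linarith
  obtain ⟨g, hg, hr, h0, h1⟩ :=
    exists_contMDiff_zero_iff_one_iff_of_isClosed (n := ⊤) (modelWithCornersSelf ℝ ℝ) hsc htc hd
  have hgc : ContDiff ℝ ∞ g := hg.contDiff
  have hcs : HasCompactSupport g := by
    refine HasCompactSupport.intro (K := ⋃ a ∈ A, Metric.closedBall (a : ℝ) 1) ?_ ?_
    · exact A.finite_toSet.isCompact_biUnion fun a _ => isCompact_closedBall _ _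
    · intro y hy
      rw [← h0]
      simp only [hs, Set.mem_iInter, Set.mem_ofPred_eq]
      intro a ha
      by_contra hlt
      push Not at hlt
      apply hy
      simp only [Set.mem_iUnion]
      refine ⟨a, ha, ?_⟩
      rw [Metric.mem_closedBall, Real.dist_eq]
      exact hlt.le
  have hcs' : HasCompactSupport (fun y => (g y : ℂ)) :=
    hcs.comp_left (g := fun y : ℝ => (y : ℂ)) (by simp)
  have hsm : ContDiff ℝ ∞ (fun y => (g y : ℂ)) :=
    Complex.ofRealCLM.contDiff.comp hgc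
  refine ⟨hcs'.toSchwartzMap hsm, g, fun y => rfl, hgc.continuous, fun y => ?_, fun y => ?_,
    fun y a ha hya => ?_, fun y hy => ?_⟩
  · exact (hr ⟨y, rfl⟩).1
  · exact (hr ⟨y, rfl⟩).2
  · rw [← h1]
    simp only [ht, Set.mem_iUnion, Set.mem_ofPred_eq]
    exact ⟨a, ha, hya⟩
  · by_contra hcon
    push Not at hcon
    apply hy
    rw [← h0]
    simp only [hs, Set.mem_iInter, Set.mem_ofPred_eq]
    exact hcon

/-- Lower bound for `T` at a point. -/
theorem norm_THT_ge {f₁ f₂ f₃ : ℝ → ℂ} {g₁ g₂ g₃ : ℝ → ℝ}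
    (e1 : ∀ y, f₁ y = (g₁ y : ℂ)) (e2 : ∀ y, f₂ y = (g₂ y : ℂ)) (e3 : ∀ y, f₃ y = (g₃ y : ℂ))
    (c1 : Continuous g₁) (c2 : Continuous g₂) (c3 : Continuous g₃)
    (p1 : ∀ y, 0 ≤ g₁ y) (p2 : ∀ y, 0 ≤ g₂ y) (p3 : ∀ y, 0 ≤ g₃ y)
    {x L : ℝ} (hL : 1 ≤ L)
    (hsupp : ∀ t, g₁ (x - t) ≠ 0 → g₂ (x - 2 * t) ≠ 0 → 1 ≤ t ∧ t ≤ L)
    {τ : ℝ} (hτ1 : 2 ≤ τ) (hτ2 : τ + 1 ≤ L)
    (h1 : ∀ t, |t - τ| ≤ 1 / 12 → g₁ (x - t) = 1)
    (h2 : ∀ t, |t - τ| ≤ 1 / 12 → g₂ (x - 2 * t) = 1)
    (h3 : ∀ t, |t - τ| ≤ 1 / 12 → g₃ (x - 3 * t) = 1) :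
    1 / (6 * L) ≤ ‖THT f₁ f₂ f₃ x‖ := by
  set G : ℝ → ℝ := fun t => g₁ (x - t) * g₂ (x - 2 * t) * g₃ (x - 3 * t) / t with hG
  have hF : ∀ t : ℝ, f₁ (x - t) * f₂ (x - 2 * t) * f₃ (x - 3 * t) / (t : ℂ) = ((G t : ℝ) : ℂ) := by
    intro t
    simp only [hG, e1, e2, e3]
    push_cast
    rfl
  have hG0 : ∀ t, ¬ (1 ≤ t ∧ t ≤ L) → G t = 0 := by
    intro t ht
    simp only [hG]
    by_cases ha : g₁ (x - t) = 0
    · simp [ha]
    by_cases hb : g₂ (x - 2 * t) = 0
    · simp [hb]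
    exact absurd (hsupp t ha hb) ht
  have hGpos : ∀ t, 0 ≤ G t := by
    intro t
    by_cases ht : 1 ≤ t ∧ t ≤ L
    · simp only [hG]
      have := p1 (x - t); have := p2 (x - 2 * t); have := p3 (x - 3 * t)
      have : 0 ≤ t := by linarith [ht.1]
      positivity
    · rw [hG0 t ht]
  -- continuity on the support interval, integrability
  have hGint : Integrable G := by
    have hcont : ContinuousOn G (Icc 1 L) := by
      simp only [hG]
      refine ContinuousOn.div (by fun_prop) continuousOn_id ?_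
      intro t ht
      simp only [mem_Icc] at ht ⊢
      linarith [ht.1]
    have hio : IntegrableOn G (Icc 1 L) := hcont.integrableOn_Icc
    have : G = (Icc 1 L).indicator G := by
      funext t
      by_cases ht : t ∈ Icc 1 L
      · rw [Set.indicator_of_mem ht]
      · rw [Set.indicator_of_notMem ht]
        exact hG0 t ht
    rw [this]
    exact hio.integrable_indicator measurableSet_Icc
  have htr : ∀ ε R : ℝ, ε < 1 → L < R → truncTHT f₁ f₂ f₃ ε R x = ((∫ t, G t : ℝ) : ℂ) := by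
    intro ε R hε hR
    unfold truncTHT
    simp_rw [hF]
    rw [integral_complex_ofReal]
    congr 1
    apply setIntegral_eq_integral_of_forall_compl_eq_zero
    intro t ht
    apply hG0
    intro hcon
    apply ht
    simp only [mem_ofPred_eq]
    rw [abs_of_nonneg (by linarith [hcon.1])]
    exact ⟨by linarith [hcon.1], by linarith [hcon.2]⟩
  have hlim : THT f₁ f₂ f₃ x = ((∫ t, G t : ℝ) : ℂ) := by
    unfold THT
    apply Tendsto.limUnder_eq
    apply tendsto_const_nhds.congr'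
    have hev : ∀ᶠ q : ℝ × ℝ in 𝓝[>] (0 : ℝ) ×ˢ atTop, q.1 < 1 ∧ L < q.2 := by
      have ha : ∀ᶠ e : ℝ in 𝓝[>] (0 : ℝ), e < 1 :=
        nhdsWithin_le_nhds (Iio_mem_nhds (by norm_num))
      exact ha.prod_mk (eventually_gt_atTop L)
    filter_upwards [hev] with q hq
    exact (htr q.1 q.2 hq.1 hq.2).symm
  rw [hlim, Complex.norm_real, Real.norm_eq_abs, abs_of_nonneg (integral_nonneg hGpos)]
  have hLpos : 0 < L := by linarith
  have hsub : ∫ t in Icc (τ - 1 / 12) (τ + 1 / 12), (1 / L : ℝ) ≤ ∫ t, G t := by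
    calc ∫ t in Icc (τ - 1 / 12) (τ + 1 / 12), (1 / L : ℝ)
        ≤ ∫ t in Icc (τ - 1 / 12) (τ + 1 / 12), G t := by
          apply setIntegral_mono_on
          · exact (continuousOn_const).integrableOn_Icc
          · exact hGint.integrableOn
          · exact measurableSet_Icc
          · intro t ht
            have habs : |t - τ| ≤ 1 / 12 := by
              rw [abs_le]
              constructor <;> linarith [ht.1, ht.2]
            simp only [hG, h1 t habs, h2 t habs, h3 t habs]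
            have ht1 : 0 < t := by linarith [ht.1]
            have ht2 : t ≤ L := by linarith [ht.2]
            norm_num
            exact inv_anti₀ ht1 ht2
      _ ≤ ∫ t, G t := by
          apply setIntegral_le_integral hGint
          exact Eventually.of_forall hGpos
  have hval : ∫ t in Icc (τ - 1 / 12) (τ + 1 / 12), (1 / L : ℝ) = 1 / (6 * L) := by
    rw [setIntegral_const]
    rw [Real.volume_real_Icc_of_le (by linarith)]
    rw [smul_eq_mul]
    field_simp
    norm_num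
  linarith

end Vale.Agent.P141
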