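import Vale.Agent.P141.Analysis

/-!
# Boundedness implies a discrete inequality
-/

namespace Vale.Agent.P141

open MeasureTheory Filter Topology Set

theorem eLpNorm_bump_le {f : ℝ → ℂ} {g : ℝ → ℝ} (A : Finset ℤ) (e : ∀ y, f y = (g y : ℂ))
    (g0 : ∀ y, 0 ≤ g y) (g1 : ∀ y, g y ≤ 1)
    (hs : ∀ y, g y ≠ 0 → ∃ a ∈ A, |y - (a : ℝ)| < 1) (p : ENNReal) :
    eLpNorm f p volume ≤ ENNReal.ofReal ((2 * (A.card : ℝ)) ^ (p⁻¹).toReal) := by
  classical
  set S : Set ℝ := ⋃ a ∈ A, Metric.ball (a : ℝ) 1 with hS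
  have hsub : Function.support f ⊆ S := by
    intro y hy
    rw [Function.mem_support, e] at hy
    have hg : g y ≠ 0 := by
      intro h; apply hy; rw [h]; simp
    obtain ⟨a, ha, hlt⟩ := hs y hg
    simp only [hS, mem_iUnion]
    exact ⟨a, ha, by rw [Metric.mem_ball, Real.dist_eq]; exact hlt⟩
  rw [← eLpNorm_restrict_eq_of_support_subset hsub]
  have hb : ∀ᵐ y ∂(volume.restrict S), ‖f y‖ ≤ 1 := by
    refine Eventually.of_forall fun y => ?_
    rw [e, Complex.norm_real, Real.norm_eq_abs, abs_of_nonneg (g0 y)]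
    exact g1 y
  refine (eLpNorm_le_of_ae_bound hb).trans ?_
  rw [ENNReal.ofReal_one, mul_one, Measure.restrict_apply_univ]
  have hvol : volume S ≤ ENNReal.ofReal (2 * (A.card : ℝ)) := by
    calc volume S ≤ ∑ a ∈ A, volume (Metric.ball (a : ℝ) 1) := measure_biUnion_finset_le _ _
      _ = ∑ _a ∈ A, ENNReal.ofReal 2 := by
          apply Finset.sum_congr rfl
          intro a _
          rw [Real.volume_ball]
          norm_num
      _ = ENNReal.ofReal (2 * (A.card : ℝ)) := by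
          rw [Finset.sum_const, nsmul_eq_mul, mul_comm, ENNReal.ofReal_mul (by norm_num)]
          simp
  rw [← ENNReal.ofReal_rpow_of_nonneg (by positivity) (by positivity), ENNReal.toReal_inv]
  exact ENNReal.rpow_le_rpow hvol (by positivity)

theorem core {p₁ p₂ p₃ r : ENNReal} (hH : IsHolderTuple p₁ p₂ p₃ r)
    (hB : BoundedAt p₁ p₂ p₃ r) :
    ∃ C : ℝ, 0 < C ∧ ∀ (L : ℝ) (A₁ A₂ A₃ B : Finset ℤ) (τ : ℤ → ℤ), 3 ≤ L →
      (∀ b ∈ B, b - τ b ∈ A₁ ∧ b - 2 * τ b ∈ A₂ ∧ b - 3 * τ b ∈ A₃) →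
      (∀ a₁ ∈ A₁, ∀ a₂ ∈ A₂, (3 : ℝ) ≤ (a₁ : ℝ) - a₂ ∧ (a₁ : ℝ) - a₂ + 2 ≤ L) →
      (B.card : ℝ) ^ (r⁻¹).toReal ≤
        C * L * (A₁.card : ℝ) ^ (p₁⁻¹).toReal * (A₂.card : ℝ) ^ (p₂⁻¹).toReal *
          (A₃.card : ℝ) ^ (p₃⁻¹).toReal := by
  classical
  obtain ⟨-, -, -, hr0, hrt, -⟩ := hH
  obtain ⟨C, hC⟩ := hB
  set ρ : ℝ := (r⁻¹).toReal with hρ
  set α₁ : ℝ := (p₁⁻¹).toReal with hα₁
  set α₂ : ℝ := (p₂⁻¹).toReal with hα₂
  set α₃ : ℝ := (p₃⁻¹).toReal with hα₃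
  have hρ0 : 0 ≤ ρ := ENNReal.toReal_nonneg
  have hα₁0 : 0 ≤ α₁ := ENNReal.toReal_nonneg
  have hα₂0 : 0 ≤ α₂ := ENNReal.toReal_nonneg
  have hα₃0 : 0 ≤ α₃ := ENNReal.toReal_nonneg
  refine ⟨6 * (2 : ℝ) ^ ρ * ((C : ℝ) + 1) * 2 ^ α₁ * 2 ^ α₂ * 2 ^ α₃, by positivity, ?_⟩
  intro L A₁ A₂ A₃ B τ hL hmem hdiff
  obtain ⟨f₁, g₁, e1, c1, n1, u1, o1, s1⟩ := exists_bump A₁
  obtain ⟨f₂, g₂, e2, c2, n2, u2, o2, s2⟩ := exists_bump A₂
  obtain ⟨f₃, g₃, e3, c3, n3, u3, o3, s3⟩ := exists_bump A₃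
  have key := hC f₁ f₂ f₃
  have b1 := eLpNorm_bump_le A₁ e1 n1 u1 s1 p₁
  have b2 := eLpNorm_bump_le A₂ e2 n2 u2 s2 p₂
  have b3 := eLpNorm_bump_le A₃ e3 n3 u3 s3 p₃
  have hLpos : 0 < L := by linarith
  -- the set where T is large
  set E : Set ℝ := ⋃ b ∈ B, Icc ((b : ℝ) - 1 / 4) ((b : ℝ) + 1 / 4) with hE
  have hEmeas : MeasurableSet E := by
    refine Finset.measurableSet_biUnion _ fun b _ => measurableSet_Icc
  have hEvol : volume E = ENNReal.ofReal ((B.card : ℝ) / 2) := by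
    rw [hE, measure_biUnion_finset]
    · have : ∀ b ∈ B, volume (Icc ((b : ℝ) - 1 / 4) ((b : ℝ) + 1 / 4)) = ENNReal.ofReal (1 / 2) := by
        intro b _
        rw [Real.volume_Icc]
        congr 1
        ring
      have h12 : (B.card : ℝ) / 2 = (B.card : ℝ) * (1 / 2) := by ring
      rw [Finset.sum_congr rfl this, Finset.sum_const, nsmul_eq_mul, h12,
        ENNReal.ofReal_mul (by positivity), ENNReal.ofReal_natCast]
    · intro b _ b' _ hne
      simp only [Function.onFun]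
      rw [Set.disjoint_left]
      intro y hy hy'
      apply hne
      have h1 : |(b : ℝ) - b'| ≤ 1 / 2 := by
        rw [abs_le]
        constructor <;> linarith [hy.1, hy.2, hy'.1, hy'.2]
      have h2 : |b - b'| < 1 := by
        have : (|b - b'| : ℝ) < 1 := by push_cast; linarith
        exact_mod_cast this
      have := Int.abs_lt_one_iff.mp h2
      omega
    · intro b _
      exact measurableSet_Icc
  have hlow : ∀ x ∈ E, 1 / (6 * L) ≤ ‖THT f₁ f₂ f₃ x‖ := by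
    intro x hx
    simp only [hE, mem_iUnion] at hx
    obtain ⟨b, hb, hxb⟩ := hx
    obtain ⟨m1, m2, m3⟩ := hmem b hb
    have hτ := hdiff _ m1 _ m2
    push_cast at hτ
    have hx1 : |x - b| ≤ 1 / 4 := by
      rw [abs_le]; constructor <;> linarith [hxb.1, hxb.2]
    rw [abs_le] at hx1
    refine norm_THT_ge (L := L) (τ := (τ b : ℝ)) e1 e2 e3 c1 c2 c3 n1 n2 n3 (by linarith) ?_
      (by linarith) (by linarith) ?_ ?_ ?_
    · intro t h1 h2
      obtain ⟨a₁, ha₁, l1⟩ := s1 _ h1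
      obtain ⟨a₂, ha₂, l2⟩ := s2 _ h2
      have hd := hdiff a₁ ha₁ a₂ ha₂
      rw [abs_lt] at l1 l2
      constructor <;> linarith [l1.1, l1.2, l2.1, l2.2, hd.1, hd.2]
    · intro t ht
      rw [abs_le] at ht
      apply o1 _ _ m1
      push_cast
      rw [abs_le]
      constructor <;> linarith [ht.1, ht.2, hx1.1, hx1.2]
    · intro t ht
      rw [abs_le] at ht
      apply o2 _ _ m2
      push_cast
      rw [abs_le]
      constructor <;> linarith [ht.1, ht.2, hx1.1, hx1.2]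
    · intro t ht
      rw [abs_le] at ht
      apply o3 _ _ m3
      push_cast
      rw [abs_le]
      constructor <;> linarith [ht.1, ht.2, hx1.1, hx1.2]
  have hlower : ENNReal.ofReal (1 / (6 * L) * ((B.card : ℝ) / 2) ^ ρ) ≤
      eLpNorm (THT f₁ f₂ f₃) r volume := by
    have h1 : eLpNorm (E.indicator fun _ => (1 / (6 * L) : ℝ)) r volume ≤
        eLpNorm (THT f₁ f₂ f₃) r volume := by
      apply eLpNorm_mono
      intro x
      by_cases hx : x ∈ E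
      · rw [indicator_of_mem hx, Real.norm_eq_abs, abs_of_nonneg (by positivity)]
        exact hlow x hx
      · rw [indicator_of_notMem hx]
        simp
    refine le_trans (le_of_eq ?_) h1
    rw [eLpNorm_indicator_const hEmeas hr0.ne' hrt.ne, hEvol, ENNReal.ofReal_mul (by positivity),
      ← ENNReal.ofReal_rpow_of_nonneg (by positivity) hρ0, hρ, ENNReal.toReal_inv, one_div r.toReal]
    congr 1
    rw [Real.enorm_eq_ofReal (by positivity)]
  have hupper : eLpNorm (THT f₁ f₂ f₃) r volume ≤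
      ENNReal.ofReal ((C : ℝ) * (2 * (A₁.card : ℝ)) ^ α₁ * (2 * (A₂.card : ℝ)) ^ α₂ *
        (2 * (A₃.card : ℝ)) ^ α₃) := by
    refine key.trans ?_
    rw [ENNReal.ofReal_mul (by positivity), ENNReal.ofReal_mul (by positivity),
      ENNReal.ofReal_mul (by positivity), ENNReal.ofReal_coe_nnreal]
    gcongr
  have hcomb := hlower.trans hupper
  rw [ENNReal.ofReal_le_ofReal_iff (by positivity)] at hcomb
  rw [Real.div_rpow (by positivity) (by norm_num), Real.mul_rpow (by norm_num) (by positivity),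
    Real.mul_rpow (by norm_num) (by positivity), Real.mul_rpow (by norm_num) (by positivity)] at hcomb
  have h2ρ : (0 : ℝ) < 2 ^ ρ := by positivity
  have h3 : (B.card : ℝ) ^ ρ ≤ 6 * 2 ^ ρ * L * ((C : ℝ) * (2 ^ α₁ * (A₁.card : ℝ) ^ α₁) *
      (2 ^ α₂ * (A₂.card : ℝ) ^ α₂) * (2 ^ α₃ * (A₃.card : ℝ) ^ α₃)) := by
    have h4 : (B.card : ℝ) ^ ρ = (6 * 2 ^ ρ * L) * (1 / (6 * L) * ((B.card : ℝ) ^ ρ / 2 ^ ρ)) := by
      field_simp
    rw [h4]
    exact mul_le_mul_of_nonneg_left hcomb (by positivity)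
  refine h3.trans ?_
  have h5 : 6 * 2 ^ ρ * L * ((C : ℝ) * (2 ^ α₁ * (A₁.card : ℝ) ^ α₁) *
      (2 ^ α₂ * (A₂.card : ℝ) ^ α₂) * (2 ^ α₃ * (A₃.card : ℝ) ^ α₃)) =
      (6 * 2 ^ ρ * (C : ℝ) * 2 ^ α₁ * 2 ^ α₂ * 2 ^ α₃) * L * (A₁.card : ℝ) ^ α₁ *
        (A₂.card : ℝ) ^ α₂ * (A₃.card : ℝ) ^ α₃ := by ring
  rw [h5]
  have h6 : (C : ℝ) ≤ C + 1 := by linarith
  gcongr

end Vale.Agent.P141
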