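import Mathlib

/-!
# The trilinear Hilbert transform (slopes 1, 2, 3): definitions
-/

namespace Vale.Agent.P141

open MeasureTheory Filter Topology

/-- The truncation
`T_{ε,R}(f₁,f₂,f₃)(x) = ∫_{ε<|t|<R} f₁(x-t) f₂(x-2t) f₃(x-3t) dt/t`. -/
noncomputable def truncTHT (f₁ f₂ f₃ : ℝ → ℂ) (ε R x : ℝ) : ℂ :=
  ∫ t in {t : ℝ | ε < |t| ∧ |t| < R},
    f₁ (x - t) * f₂ (x - 2 * t) * f₃ (x - 3 * t) / (t : ℂ)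

/-- The trilinear Hilbert transform: the principal value, i.e. the limit of
`T_{ε,R}(f₁,f₂,f₃)(x)` as `ε → 0+` and `R → ∞`. -/
noncomputable def THT (f₁ f₂ f₃ : ℝ → ℂ) (x : ℝ) : ℂ :=
  limUnder (𝓝[>] (0 : ℝ) ×ˢ (atTop : Filter ℝ))
    (fun q : ℝ × ℝ => truncTHT f₁ f₂ f₃ q.1 q.2 x)

/-- `(p₁,p₂,p₃,r)` is a Holder tuple: `1 < p₁,p₂,p₃ ≤ ∞`, `0 < r < ∞` and
`1/r = 1/p₁ + 1/p₂ + 1/p₃` (with `1/∞ = 0`). -/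
def IsHolderTuple (p₁ p₂ p₃ r : ENNReal) : Prop :=
  1 < p₁ ∧ 1 < p₂ ∧ 1 < p₃ ∧ 0 < r ∧ r < ⊤ ∧ r⁻¹ = p₁⁻¹ + p₂⁻¹ + p₃⁻¹

/-- The trilinear Hilbert transform is bounded at `(p₁,p₂,p₃,r)`: there is a finite `C` with
`‖T(f₁,f₂,f₃)‖_r ≤ C ‖f₁‖_{p₁} ‖f₂‖_{p₂} ‖f₃‖_{p₃}` for all Schwartz `f₁,f₂,f₃`. Here
`eLpNorm g r volume` is the `L^r(ℝ)` norm (quasi-norm `(∫ |g|^r)^(1/r)` for `0 < r < 1`). -/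
def BoundedAt (p₁ p₂ p₃ r : ENNReal) : Prop :=
  ∃ C : NNReal, ∀ f₁ f₂ f₃ : SchwartzMap ℝ ℂ,
    eLpNorm (THT f₁ f₂ f₃) r volume ≤
      C * eLpNorm f₁ p₁ volume * eLpNorm f₂ p₂ volume * eLpNorm f₃ p₃ volume

end Vale.Agent.P141
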