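import Vale.Agent.P141.Types

/-!
# Entropy form of the inequality
-/

namespace Vale.Agent.P141

open Finset Filter

variable {G : Type} [Fintype G] [DecidableEq G]

/-- The weight of the fibre of `a` through `g`. -/
def fib (k : G → ℕ) (a : G → ℤ) (g : G) : ℕ := ∑ g' with a g' = a g, k g'

theorem fib_pos (k : G → ℕ) (hk : ∀ g, 0 < k g) (a : G → ℤ) (g : G) : 0 < fib k a g := by
  unfold fib
  apply Finset.sum_pos
  · intro i _; exact hk i
  · exact ⟨g, by simp⟩

theorem entropy_ineq {p₁ p₂ p₃ r : ENNReal} (hH : IsHolderTuple p₁ p₂ p₃ r)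
    (hB : BoundedAt p₁ p₂ p₃ r) (hρ1 : 1 < (r⁻¹).toReal) [Nonempty G] (x t : G → ℤ)
    (hx : Function.Injective x) (k : G → ℕ) (hk : ∀ g, 0 < k g) (K : ℕ) (hK : ∑ g, k g = K) :
    ((r⁻¹).toReal - 1) * (K * Real.log K - ∑ g, k g * Real.log (k g)) ≤
      (p₁⁻¹).toReal * (K * Real.log K - ∑ g, k g * Real.log (fib k (fun g => x g - t g) g)) +
      (p₂⁻¹).toReal * (K * Real.log K - ∑ g, k g * Real.log (fib k (fun g => x g - 2 * t g) g)) +
      (p₃⁻¹).toReal *
        (K * Real.log K - ∑ g, k g * Real.log (fib k (fun g => x g - 3 * t g) g)) := by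
  classical
  have hKpos : 0 < K := by
    rw [← hK]
    exact Finset.sum_pos (fun g _ => hk g) Finset.univ_nonempty
  have hKR : (0 : ℝ) < K := by exact_mod_cast hKpos
  have hdual := dual_ineq hH hB hρ1 x t hx
  set ρ : ℝ := (r⁻¹).toReal with hρ
  set α₁ : ℝ := (p₁⁻¹).toReal with hα₁
  set α₂ : ℝ := (p₂⁻¹).toReal with hα₂
  set α₃ : ℝ := (p₃⁻¹).toReal with hα₃
  have hρ' : 0 < ρ - 1 := by linarith
  -- weights
  let q : (G → ℤ) → ℤ → ℝ := fun a z => ((∑ g' with a g' = z, k g' : ℕ) : ℝ) / K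
  have hq0 : ∀ a z, 0 ≤ q a z := fun a z => by positivity
  have hqa : ∀ (a : G → ℤ) g, q a (a g) = (fib k a g : ℝ) / K := fun a g => rfl
  have hqpos : ∀ (a : G → ℤ) g, 0 < q a (a g) := by
    intro a g
    rw [hqa]
    have : (0 : ℝ) < fib k a g := by exact_mod_cast fib_pos k hk a g
    positivity
  have hqs : ∀ a : G → ℤ, ∑ z ∈ Finset.univ.image a, q a z ≤ 1 := by
    intro a
    simp only [q]
    rw [← Finset.sum_div, ← Nat.cast_sum, Finset.sum_fiberwise_of_maps_to
      (fun g _ => Finset.mem_image_of_mem a (Finset.mem_univ g)), hK, div_self hKR.ne']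
  have hZ := hdual (q fun g => x g - t g) (q fun g => x g - 2 * t g) (q fun g => x g - 3 * t g)
    (hq0 _) (hq0 _) (hq0 _) (hqpos fun g => x g - t g) (hqpos fun g => x g - 2 * t g)
    (hqpos fun g => x g - 3 * t g) (hqs _) (hqs _) (hqs _)
  set a₁ : G → ℤ := fun g => x g - t g with ha₁
  set a₂ : G → ℤ := fun g => x g - 2 * t g with ha₂
  set a₃ : G → ℤ := fun g => x g - 3 * t g with ha₃
  set v : G → ℝ := fun g => (q a₁ (a₁ g) ^ α₁ * q a₂ (a₂ g) ^ α₂ * q a₃ (a₃ g) ^ α₃) ^
    (1 / (ρ - 1)) with hv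
  have hZ' : ∑ g, v g ≤ 1 := hZ
  have hwpos : ∀ g, 0 < q a₁ (a₁ g) ^ α₁ * q a₂ (a₂ g) ^ α₂ * q a₃ (a₃ g) ^ α₃ := by
    intro g
    have := hqpos a₁ g; have := hqpos a₂ g; have := hqpos a₃ g
    positivity
  have hvpos : ∀ g, 0 < v g := fun g => Real.rpow_pos_of_pos (hwpos g) _
  -- logarithm of `v`
  have hlogv : ∀ g, Real.log (v g) = (1 / (ρ - 1)) *
      (α₁ * (Real.log (fib k a₁ g) - Real.log K) + α₂ * (Real.log (fib k a₂ g) - Real.log K) +
        α₃ * (Real.log (fib k a₃ g) - Real.log K)) := by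
    intro g
    have f1 : (0 : ℝ) < fib k a₁ g := by exact_mod_cast fib_pos k hk a₁ g
    have f2 : (0 : ℝ) < fib k a₂ g := by exact_mod_cast fib_pos k hk a₂ g
    have f3 : (0 : ℝ) < fib k a₃ g := by exact_mod_cast fib_pos k hk a₃ g
    simp only [hv, hqa]
    rw [Real.log_rpow (by positivity), Real.log_mul (by positivity) (by positivity),
      Real.log_mul (by positivity) (by positivity), Real.log_rpow (by positivity),
      Real.log_rpow (by positivity), Real.log_rpow (by positivity),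
      Real.log_div f1.ne' hKR.ne', Real.log_div f2.ne' hKR.ne', Real.log_div f3.ne' hKR.ne']
  -- Gibbs inequality
  have hgibbs : ∑ g, (k g : ℝ) * (Real.log (v g) - Real.log (k g) + Real.log K) ≤ 0 := by
    have h1 : ∀ g ∈ (Finset.univ : Finset G),
        (k g : ℝ) * (Real.log (v g) - Real.log (k g) + Real.log K) ≤ K * v g - k g := by
      intro g _
      have kg : (0 : ℝ) < k g := by exact_mod_cast hk g
      have e1 : Real.log (v g) - Real.log (k g) + Real.log K = Real.log (K * v g / k g) := by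
        rw [Real.log_div (by have := hvpos g; positivity) kg.ne',
          Real.log_mul hKR.ne' (hvpos g).ne']
        ring
      rw [e1]
      have e2 := Real.log_le_sub_one_of_pos (show 0 < K * v g / k g by
        have := hvpos g; positivity)
      calc (k g : ℝ) * Real.log (K * v g / k g) ≤ k g * (K * v g / k g - 1) := by gcongr
        _ = K * v g - k g := by field_simp
    calc ∑ g, (k g : ℝ) * (Real.log (v g) - Real.log (k g) + Real.log K)
        ≤ ∑ g, (K * v g - k g) := Finset.sum_le_sum h1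
      _ = K * ∑ g, v g - K := by
          rw [Finset.sum_sub_distrib, ← Finset.mul_sum, ← Nat.cast_sum, hK]
      _ ≤ 0 := by nlinarith
  have hKsum : ∑ g, (k g : ℝ) = K := by rw [← Nat.cast_sum, hK]
  have hS : ∀ a : G → ℤ, ∑ g, (k g : ℝ) * (Real.log (fib k a g) - Real.log K) =
      -(K * Real.log K - ∑ g, k g * Real.log (fib k a g)) := by
    intro a
    simp only [mul_sub, Finset.sum_sub_distrib, ← Finset.sum_mul, hKsum]
    ring
  have hexp : ∑ g, (k g : ℝ) * (Real.log (v g) - Real.log (k g) + Real.log K) =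
      (1 / (ρ - 1)) * (α₁ * ∑ g, (k g : ℝ) * (Real.log (fib k a₁ g) - Real.log K) +
        α₂ * ∑ g, (k g : ℝ) * (Real.log (fib k a₂ g) - Real.log K) +
        α₃ * ∑ g, (k g : ℝ) * (Real.log (fib k a₃ g) - Real.log K)) +
      (K * Real.log K - ∑ g, k g * Real.log (k g)) := by
    have : ∀ g, (k g : ℝ) * (Real.log (v g) - Real.log (k g) + Real.log K) =
        (1 / (ρ - 1)) * (α₁ * ((k g : ℝ) * (Real.log (fib k a₁ g) - Real.log K)) +
        α₂ * ((k g : ℝ) * (Real.log (fib k a₂ g) - Real.log K)) +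
        α₃ * ((k g : ℝ) * (Real.log (fib k a₃ g) - Real.log K))) +
        ((k g : ℝ) * Real.log K - k g * Real.log (k g)) := by
      intro g
      rw [hlogv]
      ring
    rw [Finset.sum_congr rfl fun g _ => this g, Finset.sum_add_distrib, ← Finset.mul_sum,
      Finset.sum_add_distrib, Finset.sum_add_distrib, ← Finset.mul_sum, ← Finset.mul_sum,
      ← Finset.mul_sum, Finset.sum_sub_distrib, ← Finset.sum_mul, hKsum]
  rw [hexp, hS, hS, hS] at hgibbs
  have h5 := mul_le_mul_of_nonneg_left hgibbs hρ'.le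
  rw [mul_zero, mul_add, ← mul_assoc, mul_one_div, div_self hρ'.ne', one_mul] at h5
  linarith

end Vale.Agent.P141
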