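import Vale.Agent.P141.Core

/-!
# Random linear hashing: a discrete inequality for finite sets of integer vectors
-/

namespace Vale.Agent.P141

open Finset

/-- The number of `l` with `⟨l, v⟩ = 0`, times `P`, is at most `P ^ d` when `v ≠ 0`. -/
theorem card_ker_mul_le {κ : Type*} [Fintype κ] [DecidableEq κ] {P : ℕ} [Fact P.Prime]
    (v : κ → ZMod P) (hv : v ≠ 0) :
    #{l : κ → ZMod P | ∑ i, l i * v i = 0} * P ≤ Fintype.card (κ → ZMod P) := by
  classical
  obtain ⟨i, hi⟩ : ∃ i, v i ≠ 0 := by
    by_contra hcon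
    push Not at hcon
    exact hv (funext hcon)
  have hP : Fintype.card (ZMod P) = P := ZMod.card P
  have : (({l : κ → ZMod P | ∑ i, l i * v i = 0} : Finset (κ → ZMod P)) ×ˢ
      (Finset.univ : Finset (ZMod P))).card ≤ (Finset.univ : Finset (κ → ZMod P)).card := by
    apply Finset.card_le_card_of_injOn (fun q => q.1 + Pi.single i q.2)
    · intro q _
      simp
    · intro q hq q' hq' heq
      simp only [coe_product, coe_univ, Set.mem_prod, mem_coe, mem_filter, mem_univ, true_and,
        Set.mem_univ, and_true] at hq hq'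
      simp only at heq
      have h1 : ∀ (l : κ → ZMod P) (s : ZMod P), ∑ j, (l + Pi.single i s : κ → ZMod P) j * v j =
          ∑ j, l j * v j + s * v i := by
        intro l s
        simp only [Pi.add_apply, add_mul, Finset.sum_add_distrib]
        congr 1
        rw [Finset.sum_eq_single i]
        · simp
        · intro b _ hb
          simp [Pi.single_eq_of_ne hb]
        · simp
      have h2 := h1 q.1 q.2
      have h3 := h1 q'.1 q'.2
      rw [heq, h3, hq, hq', zero_add, zero_add] at h2
      have h4 : q'.2 = q.2 := mul_right_cancel₀ hi h2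
      have h5 : q.1 = q'.1 := by
        rw [h4] at heq
        exact add_right_cancel heq
      exact Prod.ext h5 h4.symm
  rw [Finset.card_product, Finset.card_univ, Finset.card_univ, hP] at this
  exact this

/-- A good linear hash exists. -/
theorem exists_hash {κ : Type*} [Fintype κ] [DecidableEq κ] {P : ℕ} [Fact P.Prime]
    (B : Finset (κ → ℤ)) (hBP : B.card ≤ P)
    (hinj : ∀ b ∈ B, ∀ b' ∈ B, b ≠ b' → (fun i => ((b i - b' i : ℤ) : ZMod P)) ≠ 0) :
    ∃ l : κ → ZMod P, B.card ≤ 2 * (B.image fun b => ∑ i, l i * ((b i : ℤ) : ZMod P)).card := by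
  classical
  set h : (κ → ZMod P) → (κ → ℤ) → ZMod P := fun l b => ∑ i, l i * ((b i : ℤ) : ZMod P) with hh
  set col : (κ → ZMod P) → ℕ := fun l => #{q ∈ B ×ˢ B | h l q.1 = h l q.2} with hcol
  set M : ℕ := Fintype.card (κ → ZMod P) with hM
  have hMpos : 0 < M := Fintype.card_pos
  have hPpos : 0 < P := (Fact.out : P.Prime).pos
  -- total number of collisions
  have htot : (∑ l, col l) * P ≤ (2 * B.card * M) * P := by
    have h1 : ∑ l, col l = ∑ q ∈ B ×ˢ B, #{l : κ → ZMod P | h l q.1 = h l q.2} := by
      simp only [hcol, Finset.card_filter]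
      rw [Finset.sum_comm]
    rw [h1, Finset.sum_mul]
    have h2 : ∀ q ∈ B ×ˢ B, #{l : κ → ZMod P | h l q.1 = h l q.2} * P ≤
        (if q.1 = q.2 then M * P else 0) + M := by
      intro q hq
      rw [Finset.mem_product] at hq
      by_cases hqq : q.1 = q.2
      · rw [if_pos hqq]
        have : #{l : κ → ZMod P | h l q.1 = h l q.2} ≤ M := by
          rw [hM, ← Finset.card_univ]
          exact Finset.card_le_card (Finset.filter_subset _ _)
        exact (Nat.mul_le_mul_right P this).trans (Nat.le_add_right _ _)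
      · rw [if_neg hqq, zero_add]
        have := card_ker_mul_le _ (hinj q.1 hq.1 q.2 hq.2 hqq)
        refine le_trans (le_of_eq ?_) this
        congr 2
        ext l
        simp only [mem_filter, mem_univ, true_and, hh]
        rw [← sub_eq_zero, ← Finset.sum_sub_distrib]
        simp only [Int.cast_sub, mul_sub]
    refine (Finset.sum_le_sum h2).trans ?_
    rw [Finset.sum_add_distrib, Finset.sum_const, Finset.card_product, smul_eq_mul]
    have h3 : ∑ q ∈ B ×ˢ B, (if q.1 = q.2 then M * P else 0) = B.card * (M * P) := by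
      rw [Finset.sum_product]
      have : ∀ b ∈ B, ∑ b' ∈ B, (if (b, b').1 = (b, b').2 then M * P else 0) = M * P := by
        intro b hb
        simp [hb]
      rw [Finset.sum_congr rfl this, Finset.sum_const, smul_eq_mul]
    rw [h3]
    have h4 : B.card * B.card * M ≤ B.card * P * M := by gcongr
    nlinarith [h4]
  have htot' : ∑ l, col l ≤ 2 * B.card * M := Nat.le_of_mul_le_mul_right htot hPpos
  obtain ⟨l, hl⟩ : ∃ l, col l ≤ 2 * B.card := by
    by_contra hcon
    push Not at hcon
    have : ∑ l : κ → ZMod P, (2 * B.card) < ∑ l, col l := by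
      apply Finset.sum_lt_sum_of_nonempty Finset.univ_nonempty
      intro l _
      exact hcon l
    rw [Finset.sum_const, Finset.card_univ, smul_eq_mul, ← hM] at this
    nlinarith [this, htot']
  refine ⟨l, ?_⟩
  -- Cauchy-Schwarz
  set I := B.image (h l) with hI
  have hfib : B.card = ∑ y ∈ I, #{b ∈ B | h l b = y} :=
    Finset.card_eq_sum_card_image (h l) B
  have hcol2 : col l = ∑ y ∈ I, (#{b ∈ B | h l b = y}) ^ 2 := by
    simp only [hcol]
    rw [Finset.card_eq_sum_card_fiberwise (f := fun q : (κ → ℤ) × (κ → ℤ) => h l q.1) (t := I)]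
    · apply Finset.sum_congr rfl
      intro y _
      rw [pow_two, ← Finset.card_product]
      congr 1
      ext q
      simp only [mem_filter, mem_product]
      constructor
      · rintro ⟨⟨⟨h1, h2⟩, h3⟩, h4⟩
        exact ⟨⟨h1, h4⟩, h2, by rw [← h3]; exact h4⟩
      · rintro ⟨⟨h1, h2⟩, h3, h4⟩
        exact ⟨⟨⟨h1, h3⟩, by rw [h2, h4]⟩, h2⟩
    · intro q hq
      simp only [mem_coe, mem_filter, mem_product] at hq
      simp only [hI, mem_coe, mem_image]
      exact ⟨q.1, hq.1.1, rfl⟩
  have hcs : (B.card : ℤ) ^ 2 ≤ I.card * (col l : ℤ) := by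
    rw [hfib, hcol2]
    push_cast
    exact sq_sum_le_card_mul_sum_sq
  have hcs' : B.card ^ 2 ≤ I.card * col l := by exact_mod_cast hcs
  by_cases hB0 : B.card = 0
  · rw [hB0]; exact Nat.zero_le _
  have hBpos : 0 < B.card := Nat.pos_of_ne_zero hB0
  have h7 : B.card * B.card ≤ (2 * I.card) * B.card := by nlinarith [hcs', hl]
  exact Nat.le_of_mul_le_mul_right h7 hBpos

end Vale.Agent.P141
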