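import Vale.Agent.P141.Hash

/-!
# The hashed inequality
-/

namespace Vale.Agent.P141

open Finset

/-- Lifting a congruence: if `y, s, a` are residues and `a = y - j s`, with `0 ≤ j ≤ 3`, then the
integer `y.val - j * s.val` equals `a.val - q * P` with `q ∈ {0,1,2,3}`. -/
theorem lift_residue {P : ℕ} [Fact P.Prime] (y s a : ZMod P) (j : ℕ) (hj : j ≤ 3)
    (h : a = y - j * s) :
    ∃ q ∈ Finset.range 4, (y.val : ℤ) - j * s.val = (a.val : ℤ) - (q : ℤ) * P := by
  have hP : (0 : ℤ) < P := by exact_mod_cast (Fact.out : P.Prime).pos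
  have hy : (y.val : ℤ) < P := by exact_mod_cast ZMod.val_lt y
  have hs : (s.val : ℤ) < P := by exact_mod_cast ZMod.val_lt s
  have ha : (a.val : ℤ) < P := by exact_mod_cast ZMod.val_lt a
  have hy0 : (0 : ℤ) ≤ y.val := by positivity
  have hs0 : (0 : ℤ) ≤ s.val := by positivity
  have ha0 : (0 : ℤ) ≤ a.val := by positivity
  have hdvd : (P : ℤ) ∣ (a.val : ℤ) - ((y.val : ℤ) - j * s.val) := by
    rw [← ZMod.intCast_zmod_eq_zero_iff_dvd]
    push_cast
    simp only [ZMod.natCast_val, ZMod.cast_id', id_eq]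
    rw [h]; ring
  obtain ⟨q, hq⟩ := hdvd
  have hj' : (j : ℤ) ≤ 3 := by exact_mod_cast hj
  have hj0 : (0 : ℤ) ≤ j := by positivity
  have hjs : (j : ℤ) * s.val ≤ 3 * (P - 1) := by nlinarith
  have hjs0 : (0 : ℤ) ≤ (j : ℤ) * s.val := by positivity
  have hq0 : 0 ≤ q := by
    by_contra hcon
    push Not at hcon
    have : (P : ℤ) * q ≤ -P := by nlinarith
    linarith
  have hq4 : q < 4 := by
    by_contra hcon
    push Not at hcon
    have : (4 : ℤ) * P ≤ P * q := by nlinarith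
    linarith
  refine ⟨q.toNat, ?_, ?_⟩
  · rw [Finset.mem_range]; omega
  · rw [Int.toNat_of_nonneg hq0]
    linarith

theorem hashed {p₁ p₂ p₃ r : ENNReal} (hH : IsHolderTuple p₁ p₂ p₃ r)
    (hB : BoundedAt p₁ p₂ p₃ r) :
    ∃ C : ℝ, 0 < C ∧ ∀ (κ : Type) [Fintype κ] (A₁ A₂ A₃ B : Finset (κ → ℤ))
      (τ : (κ → ℤ) → (κ → ℤ)), B.Nonempty →
      (∀ b ∈ B, b - τ b ∈ A₁ ∧ b - 2 • τ b ∈ A₂ ∧ b - 3 • τ b ∈ A₃) →
      (∀ b ∈ B, ∀ b' ∈ B, ∀ i, |b i - b' i| < (B.card : ℤ)) →
      (B.card : ℝ) ^ (r⁻¹).toReal ≤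
        C * B.card * (A₁.card : ℝ) ^ (p₁⁻¹).toReal * (A₂.card : ℝ) ^ (p₂⁻¹).toReal *
          (A₃.card : ℝ) ^ (p₃⁻¹).toReal := by
  classical
  obtain ⟨C, hC0, hC⟩ := core hH hB
  set ρ : ℝ := (r⁻¹).toReal with hρ
  set α₁ : ℝ := (p₁⁻¹).toReal with hα₁
  set α₂ : ℝ := (p₂⁻¹).toReal with hα₂
  set α₃ : ℝ := (p₃⁻¹).toReal with hα₃
  have hρ0 : 0 ≤ ρ := ENNReal.toReal_nonneg
  have hα₁0 : 0 ≤ α₁ := ENNReal.toReal_nonneg
  have hα₂0 : 0 ≤ α₂ := ENNReal.toReal_nonneg
  have hα₃0 : 0 ≤ α₃ := ENNReal.toReal_nonneg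
  refine ⟨2 ^ ρ * (C * 26 * 4 ^ α₁ * 4 ^ α₂ * 4 ^ α₃), by positivity, ?_⟩
  intro κ _ A₁ A₂ A₃ B τ hne hmem hsmall
  have hBpos : 0 < B.card := Finset.card_pos.mpr hne
  obtain ⟨P, hPp, hP1, hP2⟩ := Nat.exists_prime_lt_and_le_two_mul B.card hBpos.ne'
  have : Fact P.Prime := ⟨hPp⟩
  have hPpos : 0 < P := hPp.pos
  obtain ⟨l, hl⟩ := exists_hash (P := P) B hP1.le (by
    intro b hb b' hb' hne' hcon
    apply hne'
    funext i
    have h1 := congrFun hcon i
    simp only [Pi.zero_apply] at h1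
    rw [ZMod.intCast_zmod_eq_zero_iff_dvd] at h1
    have h2 := hsmall b hb b' hb' i
    have h3 : |b i - b' i| < (P : ℤ) := h2.trans (by exact_mod_cast hP1)
    have h4 := Int.eq_zero_of_abs_lt_dvd h1 h3
    linarith)
  set h : (κ → ℤ) → ZMod P := fun b => ∑ i, l i * ((b i : ℤ) : ZMod P) with hh
  have hlin : ∀ (b t : κ → ℤ) (n : ℕ), h (b - n • t) = h b - n * h t := by
    intro b t n
    have hi : ∀ i, (b - n • t) i = b i - (n : ℤ) * t i := by
      intro i
      simp
    simp only [hh, hi, Int.cast_sub, Int.cast_mul,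
      Int.cast_natCast, mul_sub, Finset.sum_sub_distrib, Finset.mul_sum]
    congr 1
    apply Finset.sum_congr rfl
    intro i _
    ring
  set I := B.image h with hI
  have hch : ∀ y : ZMod P, ∃ b : κ → ℤ, y ∈ I → b ∈ B ∧ h b = y := by
    intro y
    by_cases hy : y ∈ I
    · obtain ⟨b, hb, hby⟩ := Finset.mem_image.mp hy
      exact ⟨b, fun _ => ⟨hb, hby⟩⟩
    · exact ⟨0, fun h' => absurd h' hy⟩
  choose bb hbb using hch
  set K : ℤ := 4 * P + 3 with hK
  set B' : Finset ℤ := I.image (fun y => (y.val : ℤ)) with hB'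
  have hB'card : B'.card = I.card := by
    apply Finset.card_image_of_injective
    intro y y' hyy
    simp only at hyy
    exact ZMod.val_injective P (by exact_mod_cast hyy)
  set τ' : ℤ → ℤ := fun z => ((h (τ (bb (z : ZMod P)))).val : ℤ) + K with hτ'
  let lift : ℕ → Finset (κ → ℤ) → Finset ℤ := fun j A =>
    ((A.image h) ×ˢ (Finset.range 4)).image (fun q => (q.1.val : ℤ) - (q.2 : ℤ) * P - j * K)
  have hliftcard : ∀ j A, ((lift j A).card : ℝ) ≤ 4 * (A.card : ℝ) := by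
    intro j A
    have h1 : (lift j A).card ≤ 4 * A.card := by
      calc (lift j A).card ≤ ((A.image h) ×ˢ (Finset.range 4)).card := Finset.card_image_le
        _ = (A.image h).card * 4 := by rw [Finset.card_product, Finset.card_range]
        _ ≤ A.card * 4 := Nat.mul_le_mul_right 4 Finset.card_image_le
        _ = 4 * A.card := Nat.mul_comm _ _
    exact_mod_cast h1
  have hliftmem : ∀ (y s : ZMod P) (j : ℕ) (A : Finset (κ → ℤ)), j ≤ 3 → y - j * s ∈ A.image h →
      (y.val : ℤ) - j * (s.val + K) ∈ lift j A := by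
    intro y s j A hj hmemA
    obtain ⟨q, hq, hqe⟩ := lift_residue y s (y - j * s) j hj rfl
    rw [Finset.mem_image]
    refine ⟨(y - j * s, q), Finset.mem_product.mpr ⟨hmemA, hq⟩, ?_⟩
    simp only
    linarith
  have hPZ : (0 : ℤ) < P := by exact_mod_cast hPpos
  have hmain := hC (8 * (P : ℝ) + 5) (lift 1 A₁) (lift 2 A₂) (lift 3 A₃) B' τ' (by
      have : (0 : ℝ) ≤ P := by positivity
      linarith) (by
      intro z hz
      obtain ⟨y, hy, hyz⟩ := Finset.mem_image.mp hz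
      obtain ⟨hb1, hb2⟩ := hbb y hy
      have hzy : ((z : ℤ) : ZMod P) = y := by
        rw [← hyz]
        simp
      have hτz : τ' z = ((h (τ (bb y))).val : ℤ) + K := by
        simp only [hτ', hzy]
      obtain ⟨m1, m2, m3⟩ := hmem _ hb1
      have e1 : y - (1 : ℕ) * h (τ (bb y)) ∈ A₁.image h := by
        refine Finset.mem_image.mpr ⟨_, m1, ?_⟩
        have := hlin (bb y) (τ (bb y)) 1
        rw [one_smul] at this
        rw [this, hb2]
      have e2 : y - (2 : ℕ) * h (τ (bb y)) ∈ A₂.image h := by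
        refine Finset.mem_image.mpr ⟨_, m2, ?_⟩
        rw [hlin, hb2]
      have e3 : y - (3 : ℕ) * h (τ (bb y)) ∈ A₃.image h := by
        refine Finset.mem_image.mpr ⟨_, m3, ?_⟩
        rw [hlin, hb2]
      have f1 := hliftmem _ _ 1 _ (by norm_num) e1
      have f2 := hliftmem _ _ 2 _ (by norm_num) e2
      have f3 := hliftmem _ _ 3 _ (by norm_num) e3
      rw [← hyz, hyz, hτz]
      rw [hyz] at f1 f2 f3
      refine ⟨?_, ?_, ?_⟩
      · convert f1 using 1
        push_cast; ring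
      · convert f2 using 1
        push_cast; ring
      · convert f3 using 1
        push_cast; ring) (by
      intro a₁ ha₁ a₂ ha₂
      obtain ⟨q1, hq1, he1⟩ := Finset.mem_image.mp ha₁
      obtain ⟨q2, hq2, he2⟩ := Finset.mem_image.mp ha₂
      have r1 := Finset.mem_range.mp (Finset.mem_product.mp hq1).2
      have r2 := Finset.mem_range.mp (Finset.mem_product.mp hq2).2
      have v1 : (q1.1.val : ℤ) < P := by exact_mod_cast ZMod.val_lt q1.1
      have v2 : (q2.1.val : ℤ) < P := by exact_mod_cast ZMod.val_lt q2.1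
      have w1 : (0 : ℤ) ≤ q1.1.val := by positivity
      have w2 : (0 : ℤ) ≤ q2.1.val := by positivity
      have r1' : (q1.2 : ℤ) ≤ 3 := by omega
      have r2' : (q2.2 : ℤ) ≤ 3 := by omega
      have x1 : (0 : ℤ) ≤ (q1.2 : ℤ) * P := by positivity
      have x2 : (0 : ℤ) ≤ (q2.2 : ℤ) * P := by positivity
      have x3 : (q1.2 : ℤ) * P ≤ 3 * P := by nlinarith
      have x4 : (q2.2 : ℤ) * P ≤ 3 * P := by nlinarith
      have hge : (3 : ℤ) ≤ a₁ - a₂ := by
        rw [← he1, ← he2]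
        push_cast
        linarith
      have hle : a₁ - a₂ + 2 ≤ 8 * (P : ℤ) + 5 := by
        rw [← he1, ← he2]
        push_cast
        linarith
      constructor
      · exact_mod_cast hge
      · exact_mod_cast hle)
  -- combine
  have hB'1 : (B.card : ℝ) / 2 ≤ B'.card := by
    rw [hB'card]
    have : (B.card : ℝ) ≤ 2 * I.card := by exact_mod_cast hl
    linarith
  have hL : 8 * (P : ℝ) + 5 ≤ 26 * B.card := by
    have h1 : (P : ℝ) ≤ 2 * B.card := by exact_mod_cast hP2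
    have h2 : (1 : ℝ) ≤ B.card := by exact_mod_cast hBpos
    linarith
  have hfin : ((B.card : ℝ) / 2) ^ ρ ≤ C * (26 * B.card) * (4 * (A₁.card : ℝ)) ^ α₁ *
      (4 * (A₂.card : ℝ)) ^ α₂ * (4 * (A₃.card : ℝ)) ^ α₃ := by
    refine (Real.rpow_le_rpow (by positivity) hB'1 hρ0).trans (hmain.trans ?_)
    have g1 := hliftcard 1 A₁
    have g2 := hliftcard 2 A₂
    have g3 := hliftcard 3 A₃
    gcongr
  rw [Real.div_rpow (by positivity) (by norm_num), Real.mul_rpow (by norm_num) (by positivity),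
    Real.mul_rpow (by norm_num) (by positivity), Real.mul_rpow (by norm_num) (by positivity),
    div_le_iff₀ (by positivity)] at hfin
  refine hfin.trans (le_of_eq ?_)
  ring

end Vale.Agent.P141
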