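import Vale.Agent.P141.Entropy

/-!
# Explicit finite systems
-/

namespace Vale.Agent.P141

open Finset Filter

/-- Comparison of two logarithmic sums from an inequality between natural numbers. -/
theorem log_compare {G : Type} [Fintype G] (k f : G → ℕ) (hk : ∀ g, 0 < k g) (hf : ∀ g, 0 < f g)
    (K A B : ℕ) (hK : 0 < K) (hAB : B ≤ A)
    (h : K ^ ((A - B) * K) * ∏ g, k g ^ (B * k g) ≤ ∏ g, f g ^ (A * k g)) :
    (A : ℝ) * (K * Real.log K - ∑ g, k g * Real.log (f g)) ≤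
      B * (K * Real.log K - ∑ g, k g * Real.log (k g)) := by
  have hR : ((K : ℝ) ^ ((A - B) * K) * ∏ g, (k g : ℝ) ^ (B * k g)) ≤
      ∏ g, (f g : ℝ) ^ (A * k g) := by exact_mod_cast h
  have hKR : (0 : ℝ) < K := by exact_mod_cast hK
  have hkR : ∀ g, (0 : ℝ) < k g := fun g => by exact_mod_cast hk g
  have hfR : ∀ g, (0 : ℝ) < f g := fun g => by exact_mod_cast hf g
  have hp : (0 : ℝ) < ∏ g, (k g : ℝ) ^ (B * k g) :=
    Finset.prod_pos fun g _ => pow_pos (hkR g) _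
  have hlog := Real.log_le_log (by positivity) hR
  rw [Real.log_mul (by positivity) hp.ne', Real.log_prod (fun g _ => (pow_pos (hkR g) _).ne'),
    Real.log_prod (fun g _ => (pow_pos (hfR g) _).ne'), Real.log_pow] at hlog
  simp only [Real.log_pow] at hlog
  push_cast [Nat.cast_sub hAB] at hlog
  have e1 : ∑ g, (B : ℝ) * (k g : ℝ) * Real.log (k g) = B * ∑ g, (k g : ℝ) * Real.log (k g) := by
    rw [Finset.mul_sum]
    exact Finset.sum_congr rfl fun g _ => by ring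
  have e2 : ∑ g, (A : ℝ) * (k g : ℝ) * Real.log (f g) = A * ∑ g, (k g : ℝ) * Real.log (f g) := by
    rw [Finset.mul_sum]
    exact Finset.sum_congr rfl fun g _ => by ring
  rw [e1, e2] at hlog
  linarith

/-- General criterion: upper bounds `E_j ≤ h_j E` for the entropies. -/
theorem entropy_contra {p₁ p₂ p₃ r : ENNReal} (hH : IsHolderTuple p₁ p₂ p₃ r)
    (hB : BoundedAt p₁ p₂ p₃ r) (hρ1 : 1 < (r⁻¹).toReal) {G : Type} [Fintype G] [DecidableEq G]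
    [Nonempty G] (x t : G → ℤ) (hx : Function.Injective x) (k : G → ℕ) (hk : ∀ g, 0 < k g)
    (K : ℕ) (hK : ∑ g, k g = K) (hE : 0 < K * Real.log K - ∑ g, k g * Real.log (k g))
    (A B₁ B₂ B₃ : ℕ) (hA : 0 < A) (h1 : B₁ ≤ A) (h2 : B₂ ≤ A) (h3 : B₃ ≤ A)
    (e1 : K ^ ((A - B₁) * K) * ∏ g, k g ^ (B₁ * k g) ≤
      ∏ g, (fib k (fun g => x g - t g) g) ^ (A * k g))
    (e2 : K ^ ((A - B₂) * K) * ∏ g, k g ^ (B₂ * k g) ≤
      ∏ g, (fib k (fun g => x g - 2 * t g) g) ^ (A * k g))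
    (e3 : K ^ ((A - B₃) * K) * ∏ g, k g ^ (B₃ * k g) ≤
      ∏ g, (fib k (fun g => x g - 3 * t g) g) ^ (A * k g)) :
    (A : ℝ) * ((r⁻¹).toReal - 1) ≤
      (p₁⁻¹).toReal * B₁ + (p₂⁻¹).toReal * B₂ + (p₃⁻¹).toReal * B₃ := by
  have hKpos : 0 < K := by
    rw [← hK]
    exact Finset.sum_pos (fun g _ => hk g) Finset.univ_nonempty
  have hmain := entropy_ineq hH hB hρ1 x t hx k hk K hK
  have c1 := log_compare k _ hk (fib_pos k hk (fun g => x g - t g)) K A B₁ hKpos h1 e1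
  have c2 := log_compare k _ hk (fib_pos k hk (fun g => x g - 2 * t g)) K A B₂ hKpos h2 e2
  have c3 := log_compare k _ hk (fib_pos k hk (fun g => x g - 3 * t g)) K A B₃ hKpos h3 e3
  set E : ℝ := K * Real.log K - ∑ g, k g * Real.log (k g) with hEdef
  set E₁ : ℝ := K * Real.log K - ∑ g, k g * Real.log (fib k (fun g => x g - t g) g)
  set E₂ : ℝ := K * Real.log K - ∑ g, k g * Real.log (fib k (fun g => x g - 2 * t g) g)
  set E₃ : ℝ := K * Real.log K - ∑ g, k g * Real.log (fib k (fun g => x g - 3 * t g) g)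
  have hα₁0 : 0 ≤ (p₁⁻¹).toReal := ENNReal.toReal_nonneg
  have hα₂0 : 0 ≤ (p₂⁻¹).toReal := ENNReal.toReal_nonneg
  have hα₃0 : 0 ≤ (p₃⁻¹).toReal := ENNReal.toReal_nonneg
  have m1 := mul_le_mul_of_nonneg_left c1 hα₁0
  have m2 := mul_le_mul_of_nonneg_left c2 hα₂0
  have m3 := mul_le_mul_of_nonneg_left c3 hα₃0
  have hAR : (0 : ℝ) < A := by exact_mod_cast hA
  have h4 : ((A : ℝ) * ((r⁻¹).toReal - 1)) * E ≤
      ((p₁⁻¹).toReal * B₁ + (p₂⁻¹).toReal * B₂ + (p₃⁻¹).toReal * B₃) * E := by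
    have h5 := mul_le_mul_of_nonneg_left hmain hAR.le
    nlinarith [h5, m1, m2, m3]
  exact le_of_mul_le_mul_right h4 hE

/-! ### The balanced system -/

def xA : Fin 16 → ℤ := ![-2, -3, -4, 2, 1, 0, -1, 6, 5, 4, 3, 9, 8, 7, 12, 11]
def tA : Fin 16 → ℤ := ![-2, -3, -4, 0, -1, -2, -3, 2, 1, 0, -1, 3, 2, 1, 4, 3]
def kA : Fin 16 → ℕ := ![3, 2, 1, 8, 13, 6, 1, 3, 14, 17, 6, 3, 9, 5, 1, 1]

theorem xA_inj : Function.Injective xA := by decide +kernel
theorem kA_pos : ∀ g, 0 < kA g := by decide +kernel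
theorem kA_sum : ∑ g, kA g = 93 := by decide +kernel

theorem A1 : 93 ^ ((15 - 8) * 93) * ∏ g, kA g ^ (8 * kA g) ≤
    ∏ g, (fib kA (fun g => xA g - tA g) g) ^ (15 * kA g) := by decide +kernel
theorem A2 : 93 ^ ((15 - 8) * 93) * ∏ g, kA g ^ (8 * kA g) ≤
    ∏ g, (fib kA (fun g => xA g - 2 * tA g) g) ^ (15 * kA g) := by decide +kernel
theorem A3 : 93 ^ ((15 - 8) * 93) * ∏ g, kA g ^ (8 * kA g) ≤
    ∏ g, (fib kA (fun g => xA g - 3 * tA g) g) ^ (15 * kA g) := by decide +kernel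

/-! ### Independent first and third slices -/

def xB : Fin 9 → ℤ := ![0, -1, -2, 3, 2, 1, 6, 5, 4]
def tB : Fin 9 → ℤ := ![0, -1, -2, 1, 0, -1, 2, 1, 0]
def kB : Fin 9 → ℕ := ![1, 2, 1, 2, 4, 2, 1, 2, 1]

theorem xB_inj : Function.Injective xB := by decide +kernel
theorem kB_pos : ∀ g, 0 < kB g := by decide +kernel
theorem kB_sum : ∑ g, kB g = 16 := by decide +kernel

theorem B1 : 16 ^ ((50 - 25) * 16) * ∏ g, kB g ^ (25 * kB g) ≤
    ∏ g, (fib kB (fun g => xB g - tB g) g) ^ (50 * kB g) := by decide +kernel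
theorem B2 : 16 ^ ((50 - 34) * 16) * ∏ g, kB g ^ (34 * kB g) ≤
    ∏ g, (fib kB (fun g => xB g - 2 * tB g) g) ^ (50 * kB g) := by decide +kernel
theorem B3 : 16 ^ ((50 - 25) * 16) * ∏ g, kB g ^ (25 * kB g) ≤
    ∏ g, (fib kB (fun g => xB g - 3 * tB g) g) ^ (50 * kB g) := by decide +kernel

/-! ### Independent first and second slices; independent second and third slices -/

def xC : Fin 16 → ℤ := ![0, -1, -2, -3, 4, 3, 2, 1, 8, 7, 6, 5, 12, 11, 10, 9]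
def tC : Fin 16 → ℤ := ![0, -1, -2, -3, 2, 1, 0, -1, 4, 3, 2, 1, 6, 5, 4, 3]
def kC : Fin 16 → ℕ := ![1, 3, 3, 1, 3, 9, 9, 3, 3, 9, 9, 3, 1, 3, 3, 1]

theorem xC_inj : Function.Injective xC := by decide +kernel
theorem kC_pos : ∀ g, 0 < kC g := by decide +kernel
theorem kC_sum : ∑ g, kC g = 64 := by decide +kernel

theorem C1 : 64 ^ ((20 - 10) * 64) * ∏ g, kC g ^ (10 * kC g) ≤
    ∏ g, (fib kC (fun g => xC g - tC g) g) ^ (20 * kC g) := by decide +kernel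
theorem C2 : 64 ^ ((20 - 10) * 64) * ∏ g, kC g ^ (10 * kC g) ≤
    ∏ g, (fib kC (fun g => xC g - 2 * tC g) g) ^ (20 * kC g) := by decide +kernel
theorem C3 : 64 ^ ((20 - 13) * 64) * ∏ g, kC g ^ (13 * kC g) ≤
    ∏ g, (fib kC (fun g => xC g - 3 * tC g) g) ^ (20 * kC g) := by decide +kernel

def xD : Fin 16 → ℤ := ![0, -4, -8, -12, 3, -1, -5, -9, 6, 2, -2, -6, 9, 5, 1, -3]
def tD : Fin 16 → ℤ := ![0, -2, -4, -6, 1, -1, -3, -5, 2, 0, -2, -4, 3, 1, -1, -3]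

theorem xD_inj : Function.Injective xD := by decide +kernel

theorem D1 : 64 ^ ((20 - 13) * 64) * ∏ g, kC g ^ (13 * kC g) ≤
    ∏ g, (fib kC (fun g => xD g - tD g) g) ^ (20 * kC g) := by decide +kernel
theorem D2 : 64 ^ ((20 - 10) * 64) * ∏ g, kC g ^ (10 * kC g) ≤
    ∏ g, (fib kC (fun g => xD g - 2 * tD g) g) ^ (20 * kC g) := by decide +kernel
theorem D3 : 64 ^ ((20 - 10) * 64) * ∏ g, kC g ^ (10 * kC g) ≤
    ∏ g, (fib kC (fun g => xD g - 3 * tD g) g) ^ (20 * kC g) := by decide +kernel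

theorem entropy_pos {G : Type} [Fintype G] [Nonempty G] (k : G → ℕ) (hk : ∀ g, 0 < k g) (K : ℕ)
    (hK : ∑ g, k g = K) (hlt : ∀ g, k g < K) :
    0 < K * Real.log K - ∑ g, k g * Real.log (k g) := by
  have h1 : (K : ℝ) * Real.log K = ∑ g, (k g : ℝ) * Real.log K := by
    rw [← Finset.sum_mul, ← Nat.cast_sum, hK]
  rw [h1, ← Finset.sum_sub_distrib]
  apply Finset.sum_pos _ Finset.univ_nonempty
  intro g _
  have kg : (0 : ℝ) < k g := by exact_mod_cast hk g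
  have h2 : Real.log (k g) < Real.log K := Real.log_lt_log kg (by exact_mod_cast hlt g)
  nlinarith

/-- The main necessary conditions for boundedness. -/
theorem necessary {p₁ p₂ p₃ r : ENNReal} (hH : IsHolderTuple p₁ p₂ p₃ r)
    (hB : BoundedAt p₁ p₂ p₃ r) (hρ1 : 1 < (r⁻¹).toReal) :
    (15 : ℝ) * ((r⁻¹).toReal - 1) ≤
      (p₁⁻¹).toReal * 8 + (p₂⁻¹).toReal * 8 + (p₃⁻¹).toReal * 8 ∧
    (50 : ℝ) * ((r⁻¹).toReal - 1) ≤
      (p₁⁻¹).toReal * 25 + (p₂⁻¹).toReal * 34 + (p₃⁻¹).toReal * 25 ∧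
    (20 : ℝ) * ((r⁻¹).toReal - 1) ≤
      (p₁⁻¹).toReal * 10 + (p₂⁻¹).toReal * 10 + (p₃⁻¹).toReal * 13 ∧
    (20 : ℝ) * ((r⁻¹).toReal - 1) ≤
      (p₁⁻¹).toReal * 13 + (p₂⁻¹).toReal * 10 + (p₃⁻¹).toReal * 10 := by
  refine ⟨?_, ?_, ?_, ?_⟩
  · have := entropy_contra hH hB hρ1 xA tA xA_inj kA kA_pos 93 kA_sum
      (entropy_pos kA kA_pos 93 kA_sum (by decide +kernel)) 15 8 8 8 (by norm_num) (by norm_num)
      (by norm_num) (by norm_num) A1 A2 A3
    exact_mod_cast this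
  · have := entropy_contra hH hB hρ1 xB tB xB_inj kB kB_pos 16 kB_sum
      (entropy_pos kB kB_pos 16 kB_sum (by decide +kernel)) 50 25 34 25 (by norm_num) (by norm_num)
      (by norm_num) (by norm_num) B1 B2 B3
    exact_mod_cast this
  · have := entropy_contra hH hB hρ1 xC tC xC_inj kC kC_pos 64 kC_sum
      (entropy_pos kC kC_pos 64 kC_sum (by decide +kernel)) 20 10 10 13 (by norm_num) (by norm_num)
      (by norm_num) (by norm_num) C1 C2 C3
    exact_mod_cast this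
  · have := entropy_contra hH hB hρ1 xD tD xD_inj kC kC_pos 64 kC_sum
      (entropy_pos kC kC_pos 64 kC_sum (by decide +kernel)) 20 13 10 10 (by norm_num) (by norm_num)
      (by norm_num) (by norm_num) D1 D2 D3
    exact_mod_cast this

end Vale.Agent.P141
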