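import Vale.Agent.P141.HashedIneq

/-!
# The tensor power trick
-/

namespace Vale.Agent.P141

open Finset Filter

/-- If `x ^ n ≤ C * y ^ n` for all large `n` then `x ≤ y`. -/
theorem le_of_pow_le {x y C : ℝ} (hy : 0 < y) (D : ℕ)
    (h : ∀ n : ℕ, D ≤ n → x ^ n ≤ C * y ^ n) : x ≤ y := by
  by_contra hcon
  push Not at hcon
  have h1 : 1 < x / y := (one_lt_div hy).mpr hcon
  have h2 := (tendsto_pow_atTop_atTop_of_one_lt h1).eventually (eventually_gt_atTop C)
  obtain ⟨n, hn1, hn2⟩ := (h2.and (eventually_ge_atTop D)).exists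
  have h3 := h n hn2
  rw [div_pow, lt_div_iff₀ (by positivity)] at hn1
  linarith

/-- The flattening map. -/
def flat {n : ℕ} {κ : Type} (f : Fin n → κ → ℤ) : Fin n × κ → ℤ := fun q => f q.1 q.2

theorem flat_injective {n : ℕ} {κ : Type} : Function.Injective (flat (n := n) (κ := κ)) := by
  intro f g h
  funext i k
  exact congrFun h (i, k)

/-- Cartesian power of a finite set of vectors. -/
noncomputable def cpow {κ : Type} (n : ℕ) (S : Finset (κ → ℤ)) : Finset (Fin n × κ → ℤ) := by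
  classical
  exact (Fintype.piFinset (fun _ : Fin n => S)).image flat

theorem card_cpow {κ : Type} (n : ℕ) (S : Finset (κ → ℤ)) : (cpow n S).card = S.card ^ n := by
  classical
  unfold cpow
  rw [Finset.card_image_of_injective _ flat_injective]
  simp

theorem mem_cpow {κ : Type} {n : ℕ} {S : Finset (κ → ℤ)} {f : Fin n × κ → ℤ} :
    f ∈ cpow n S ↔ ∀ i, (fun k => f (i, k)) ∈ S := by
  classical
  unfold cpow
  rw [Finset.mem_image]
  constructor
  · rintro ⟨g, hg, rfl⟩ i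
    rw [Fintype.mem_piFinset] at hg
    exact hg i
  · intro h
    refine ⟨fun i k => f (i, k), ?_, ?_⟩
    · rw [Fintype.mem_piFinset]
      exact h
    · funext q
      rfl

/-- **Sum-difference inequality.** If the trilinear Hilbert transform is bounded at a Holder tuple
`(p₁,p₂,p₃,r)` then `|B|^(1/r) ≤ |B| |A₁|^(1/p₁) |A₂|^(1/p₂) |A₃|^(1/p₃)` whenever every `b ∈ B`
comes with a `τ b` such that `b - j τ b ∈ A_j` for `j = 1, 2, 3`. -/
theorem sumDiff {p₁ p₂ p₃ r : ENNReal} (hH : IsHolderTuple p₁ p₂ p₃ r)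
    (hB : BoundedAt p₁ p₂ p₃ r) (κ : Type) [Fintype κ] (A₁ A₂ A₃ B : Finset (κ → ℤ))
    (τ : (κ → ℤ) → (κ → ℤ)) (hne : B.Nonempty)
    (hmem : ∀ b ∈ B, b - τ b ∈ A₁ ∧ b - 2 • τ b ∈ A₂ ∧ b - 3 • τ b ∈ A₃) :
    (B.card : ℝ) ^ (r⁻¹).toReal ≤
        B.card * (A₁.card : ℝ) ^ (p₁⁻¹).toReal * (A₂.card : ℝ) ^ (p₂⁻¹).toReal *
          (A₃.card : ℝ) ^ (p₃⁻¹).toReal := by
  classical
  obtain ⟨C, hC0, hC⟩ := hashed hH hB
  set ρ : ℝ := (r⁻¹).toReal with hρ
  set α₁ : ℝ := (p₁⁻¹).toReal with hα₁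
  set α₂ : ℝ := (p₂⁻¹).toReal with hα₂
  set α₃ : ℝ := (p₃⁻¹).toReal with hα₃
  have hρ0 : 0 ≤ ρ := ENNReal.toReal_nonneg
  have hα₁0 : 0 ≤ α₁ := ENNReal.toReal_nonneg
  have hα₂0 : 0 ≤ α₂ := ENNReal.toReal_nonneg
  have hα₃0 : 0 ≤ α₃ := ENNReal.toReal_nonneg
  have hBpos : 0 < B.card := Finset.card_pos.mpr hne
  obtain ⟨b₀, hb₀⟩ := hne
  have hA₁ : 0 < A₁.card := Finset.card_pos.mpr ⟨_, (hmem b₀ hb₀).1⟩
  have hA₂ : 0 < A₂.card := Finset.card_pos.mpr ⟨_, (hmem b₀ hb₀).2.1⟩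
  have hA₃ : 0 < A₃.card := Finset.card_pos.mpr ⟨_, (hmem b₀ hb₀).2.2⟩
  rcases Nat.lt_or_ge 1 B.card with hB2 | hB1
  swap
  · -- trivial case
    have h1 : B.card = 1 := le_antisymm hB1 hBpos
    rw [h1, Nat.cast_one, Real.one_rpow, one_mul]
    have g1 : (1 : ℝ) ≤ (A₁.card : ℝ) ^ α₁ := Real.one_le_rpow (by exact_mod_cast hA₁) hα₁0
    have g2 : (1 : ℝ) ≤ (A₂.card : ℝ) ^ α₂ := Real.one_le_rpow (by exact_mod_cast hA₂) hα₂0
    have g3 : (1 : ℝ) ≤ (A₃.card : ℝ) ^ α₃ := Real.one_le_rpow (by exact_mod_cast hA₃) hα₃0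
    have g12 : (1 : ℝ) ≤ (A₁.card : ℝ) ^ α₁ * (A₂.card : ℝ) ^ α₂ := one_le_mul_of_one_le_of_one_le g1 g2
    exact one_le_mul_of_one_le_of_one_le g12 g3
  · -- a bound for the entries
    obtain ⟨D, hD⟩ : ∃ D : ℕ, ∀ b ∈ B, ∀ b' ∈ B, ∀ i, |b i - b' i| ≤ (D : ℤ) := by
      refine ⟨∑ b ∈ B, ∑ b' ∈ B, ∑ i, (b i - b' i).natAbs, ?_⟩
      intro b hb b' hb' i
      rw [Int.abs_eq_natAbs]
      norm_cast
      calc (b i - b' i).natAbs ≤ ∑ i, (b i - b' i).natAbs :=
            Finset.single_le_sum (f := fun i => (b i - b' i).natAbs)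
              (fun _ _ => Nat.zero_le _) (Finset.mem_univ i)
        _ ≤ ∑ b' ∈ B, ∑ i, (b i - b' i).natAbs :=
            Finset.single_le_sum (f := fun b' => ∑ i, (b i - b' i).natAbs)
              (fun _ _ => Nat.zero_le _) hb'
        _ ≤ ∑ b ∈ B, ∑ b' ∈ B, ∑ i, (b i - b' i).natAbs :=
            Finset.single_le_sum (f := fun b => ∑ b' ∈ B, ∑ i, (b i - b' i).natAbs)
              (fun _ _ => Nat.zero_le _) hb
    apply le_of_pow_le (C := C) (D := D)
    · have g0 : (0 : ℝ) < B.card := by exact_mod_cast hBpos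
      have g1 : (0 : ℝ) < A₁.card := by exact_mod_cast hA₁
      have g2 : (0 : ℝ) < A₂.card := by exact_mod_cast hA₂
      have g3 : (0 : ℝ) < A₃.card := by exact_mod_cast hA₃
      positivity
    intro n hn
    have hcB : (D : ℤ) < ((cpow n B).card : ℤ) := by
      rw [card_cpow]
      have h1 : D < 2 ^ n := lt_of_le_of_lt hn Nat.lt_two_pow_self
      have h2 : 2 ^ n ≤ B.card ^ n := Nat.pow_le_pow_left hB2 n
      exact_mod_cast lt_of_lt_of_le h1 h2
    have hmain := hC (Fin n × κ) (cpow n A₁) (cpow n A₂) (cpow n A₃) (cpow n B)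
      (fun f q => τ (fun k => f (q.1, k)) q.2) (by
        rw [← Finset.card_pos, card_cpow]
        positivity) (by
        intro f hf
        rw [mem_cpow] at hf
        refine ⟨?_, ?_, ?_⟩
        · rw [mem_cpow]
          intro i
          exact (hmem _ (hf i)).1
        · rw [mem_cpow]
          intro i
          exact (hmem _ (hf i)).2.1
        · rw [mem_cpow]
          intro i
          exact (hmem _ (hf i)).2.2) (by
        intro f hf g hg q
        rw [mem_cpow] at hf hg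
        exact lt_of_le_of_lt (hD _ (hf q.1) _ (hg q.1) q.2) hcB)
    rw [card_cpow, card_cpow, card_cpow, card_cpow] at hmain
    push_cast at hmain
    have e : ∀ (a : ℕ) (s : ℝ), ((a : ℝ) ^ n) ^ s = ((a : ℝ) ^ s) ^ n := by
      intro a s
      rw [← Real.rpow_natCast, ← Real.rpow_mul (by positivity), mul_comm,
        Real.rpow_mul (by positivity), Real.rpow_natCast]
    rw [e, e, e, e] at hmain
    refine hmain.trans (le_of_eq ?_)
    rw [mul_pow, mul_pow, mul_pow]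
    ring

end Vale.Agent.P141
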