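import Vale.Agent.P141.Power

/-!
# Type classes and the entropy inequality
-/

namespace Vale.Agent.P141

open Finset Filter

/-- `Z ^ N ≤ (N+1) ^ k` for all `N` implies `Z ≤ 1`. -/
theorem le_one_of_pow_le {Z : ℝ} (k : ℕ) (h : ∀ N : ℕ, Z ^ N ≤ ((N : ℝ) + 1) ^ k) :
    Z ≤ 1 := by
  by_contra hcon
  push Not at hcon
  have h1 := tendsto_pow_const_div_const_pow_of_one_lt k hcon
  have h2 := h1.comp (tendsto_add_atTop_nat 1)
  have hZ : 0 < Z := by linarith
  have h3 : ∀ N : ℕ, 1 / Z ≤ ((N + 1 : ℕ) : ℝ) ^ k / Z ^ (N + 1) := by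
    intro N
    rw [div_le_div_iff₀ hZ (by positivity), one_mul, pow_succ]
    have := h N
    push_cast
    gcongr
  have h4 : 1 / Z ≤ 0 := by
    apply ge_of_tendsto h2
    exact Eventually.of_forall h3
  have : 0 < 1 / Z := by positivity
  linarith

variable {G : Type} [Fintype G] [DecidableEq G]

/-- The type (frequency vector) of a sequence. -/
def typ {N : ℕ} (s : Fin N → G) : G → ℕ := fun g => #{i | s i = g}

theorem prod_eq_of_typ {N : ℕ} (s : Fin N → G) (v : G → ℝ) :
    ∏ i, v (s i) = ∏ g, v g ^ (typ s g) := by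
  rw [← Finset.prod_fiberwise (s := Finset.univ) (g := s)]
  apply Finset.prod_congr rfl
  intro g _
  rw [Finset.prod_congr rfl (g := fun _ => v g)]
  · rw [Finset.prod_const]
    rfl
  · intro i hi
    rw [(Finset.mem_filter.mp hi).2]

/-- Bound for the number of sequences obtained from a type class by a letter-to-letter map. -/
theorem card_image_mul_le {N : ℕ} (S : Finset (Fin N → G)) (m : G → ℕ)
    (hS : ∀ s ∈ S, typ s = m) (a : G → ℤ) (q : ℤ → ℝ) (hq : ∀ z, 0 ≤ q z)
    (hsum : ∑ z ∈ Finset.univ.image a, q z ≤ 1) :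
    ((S.image fun s => fun i => a (s i)).card : ℝ) * ∏ g, q (a g) ^ m g ≤ 1 := by
  classical
  have h1 : ((S.image fun s => fun i => a (s i)).card : ℝ) * ∏ g, q (a g) ^ m g =
      ∑ u ∈ (S.image fun s => fun i => a (s i)), ∏ i, q (u i) := by
    rw [← nsmul_eq_mul, ← Finset.sum_const]
    apply Finset.sum_congr rfl
    intro u hu
    obtain ⟨s, hs, rfl⟩ := Finset.mem_image.mp hu
    rw [← hS s hs]
    exact (prod_eq_of_typ s (fun g => q (a g))).symm
  rw [h1]
  calc ∑ u ∈ (S.image fun s => fun i => a (s i)), ∏ i, q (u i)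
      ≤ ∑ u ∈ Fintype.piFinset (fun _ : Fin N => Finset.univ.image a), ∏ i, q (u i) := by
        apply Finset.sum_le_sum_of_subset_of_nonneg
        · intro u hu
          obtain ⟨s, hs, rfl⟩ := Finset.mem_image.mp hu
          rw [Fintype.mem_piFinset]
          intro i
          exact Finset.mem_image_of_mem a (Finset.mem_univ _)
        · intro u _ _
          exact Finset.prod_nonneg fun i _ => hq _
    _ = ∏ _i : Fin N, ∑ z ∈ Finset.univ.image a, q z := by
        rw [Finset.prod_univ_sum]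
    _ ≤ 1 := by
        apply Finset.prod_le_one
        · intro i _
          exact Finset.sum_nonneg fun z _ => hq z
        · intro i _
          exact hsum

/-- Dual form of the entropy inequality. -/
theorem dual_ineq {p₁ p₂ p₃ r : ENNReal} (hH : IsHolderTuple p₁ p₂ p₃ r)
    (hB : BoundedAt p₁ p₂ p₃ r) (hρ1 : 1 < (r⁻¹).toReal) (x t : G → ℤ)
    (hx : Function.Injective x) (q₁ q₂ q₃ : ℤ → ℝ)
    (h1 : ∀ z, 0 ≤ q₁ z) (h2 : ∀ z, 0 ≤ q₂ z) (h3 : ∀ z, 0 ≤ q₃ z)
    (h1' : ∀ g, 0 < q₁ (x g - t g)) (h2' : ∀ g, 0 < q₂ (x g - 2 * t g))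
    (h3' : ∀ g, 0 < q₃ (x g - 3 * t g))
    (s1 : ∑ z ∈ Finset.univ.image (fun g => x g - t g), q₁ z ≤ 1)
    (s2 : ∑ z ∈ Finset.univ.image (fun g => x g - 2 * t g), q₂ z ≤ 1)
    (s3 : ∑ z ∈ Finset.univ.image (fun g => x g - 3 * t g), q₃ z ≤ 1) :
    ∑ g, (q₁ (x g - t g) ^ (p₁⁻¹).toReal * q₂ (x g - 2 * t g) ^ (p₂⁻¹).toReal *
      q₃ (x g - 3 * t g) ^ (p₃⁻¹).toReal) ^ (1 / ((r⁻¹).toReal - 1)) ≤ 1 := by
  classical
  have hSD := fun (N : ℕ) => sumDiff hH hB (Fin N)
  set ρ : ℝ := (r⁻¹).toReal with hρ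
  set α₁ : ℝ := (p₁⁻¹).toReal with hα₁
  set α₂ : ℝ := (p₂⁻¹).toReal with hα₂
  set α₃ : ℝ := (p₃⁻¹).toReal with hα₃
  have hα₁0 : 0 ≤ α₁ := ENNReal.toReal_nonneg
  have hα₂0 : 0 ≤ α₂ := ENNReal.toReal_nonneg
  have hα₃0 : 0 ≤ α₃ := ENNReal.toReal_nonneg
  have hρ' : 0 < ρ - 1 := by linarith
  set w : G → ℝ := fun g => q₁ (x g - t g) ^ α₁ * q₂ (x g - 2 * t g) ^ α₂ *
      q₃ (x g - 3 * t g) ^ α₃ with hw
  have hwpos : ∀ g, 0 < w g := by
    intro g
    have := h1' g; have := h2' g; have := h3' g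
    simp only [hw]
    positivity
  set v : G → ℝ := fun g => w g ^ (1 / (ρ - 1)) with hv
  have hvpos : ∀ g, 0 < v g := fun g => Real.rpow_pos_of_pos (hwpos g) _
  change ∑ g, v g ≤ 1
  apply le_one_of_pow_le (Fintype.card G)
  intro N
  rw [Fintype.sum_pow]
  rw [← Finset.sum_fiberwise_of_maps_to (s := Finset.univ)
    (t := Fintype.piFinset (fun _ : G => Finset.range (N + 1))) (g := fun s => typ s)]
  · -- each fibre contributes at most one
    have hfib : ∀ m ∈ Fintype.piFinset (fun _ : G => Finset.range (N + 1)),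
        ∑ s ∈ Finset.univ.filter (fun s : Fin N → G => typ s = m), ∏ i, v (s i) ≤ 1 := by
      intro m _
      set S : Finset (Fin N → G) := Finset.univ.filter (fun s : Fin N → G => typ s = m) with hS
      have hSt : ∀ s ∈ S, typ s = m := fun s hs => (Finset.mem_filter.mp hs).2
      have hsum : ∑ s ∈ S, ∏ i, v (s i) = (S.card : ℝ) * ∏ g, v g ^ m g := by
        rw [← nsmul_eq_mul, ← Finset.sum_const]
        apply Finset.sum_congr rfl
        intro s hs
        rw [prod_eq_of_typ, hSt s hs]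
      rw [hsum]
      by_cases hSe : S = ∅
      · rw [hSe]; simp
      have hSne : S.Nonempty := Finset.nonempty_iff_ne_empty.mpr hSe
      obtain ⟨xi, hxi⟩ : ∃ xi : ℤ → ℤ, ∀ g, xi (x g) = t g := by
        refine ⟨fun z => if h : ∃ g, x g = z then t h.choose else 0, ?_⟩
        intro g
        have hex : ∃ g', x g' = x g := ⟨g, rfl⟩
        simp only [hex, dif_pos]
        congr 1
        exact hx hex.choose_spec
      set B : Finset (Fin N → ℤ) := S.image (fun s i => x (s i)) with hBdef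
      have hBcard : B.card = S.card := by
        apply Finset.card_image_of_injective
        intro s s' hss
        funext i
        exact hx (congrFun hss i)
      have key := hSD N (S.image fun s => fun i => x (s i) - t (s i))
        (S.image fun s => fun i => x (s i) - 2 * t (s i))
        (S.image fun s => fun i => x (s i) - 3 * t (s i)) B (fun b i => xi (b i))
        (hSne.image _) (by
          intro b hb
          obtain ⟨s, hs, rfl⟩ := Finset.mem_image.mp hb
          refine ⟨Finset.mem_image.mpr ⟨s, hs, ?_⟩, Finset.mem_image.mpr ⟨s, hs, ?_⟩,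
            Finset.mem_image.mpr ⟨s, hs, ?_⟩⟩
          · funext i
            simp [hxi]
          · funext i
            simp [hxi]
          · funext i
            simp [hxi])
      have c1 := card_image_mul_le S m hSt (fun g => x g - t g) q₁ h1 s1
      have c2 := card_image_mul_le S m hSt (fun g => x g - 2 * t g) q₂ h2 s2
      have c3 := card_image_mul_le S m hSt (fun g => x g - 3 * t g) q₃ h3 s3
      rw [hBcard] at key
      set n₁ : ℝ := ((S.image fun s => fun i => x (s i) - t (s i)).card : ℝ) with hn₁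
      set n₂ : ℝ := ((S.image fun s => fun i => x (s i) - 2 * t (s i)).card : ℝ) with hn₂
      set n₃ : ℝ := ((S.image fun s => fun i => x (s i) - 3 * t (s i)).card : ℝ) with hn₃
      set d₁ : ℝ := ∏ g, q₁ (x g - t g) ^ m g with hd₁
      set d₂ : ℝ := ∏ g, q₂ (x g - 2 * t g) ^ m g with hd₂
      set d₃ : ℝ := ∏ g, q₃ (x g - 3 * t g) ^ m g with hd₃
      have d₁pos : 0 < d₁ := Finset.prod_pos fun g _ => pow_pos (h1' g) _
      have d₂pos : 0 < d₂ := Finset.prod_pos fun g _ => pow_pos (h2' g) _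
      have d₃pos : 0 < d₃ := Finset.prod_pos fun g _ => pow_pos (h3' g) _
      have n₁0 : 0 ≤ n₁ := by positivity
      have n₂0 : 0 ≤ n₂ := by positivity
      have n₃0 : 0 ≤ n₃ := by positivity
      have hScard : (0 : ℝ) < S.card := by exact_mod_cast Finset.card_pos.mpr hSne
      set V : ℝ := ∏ g, v g ^ m g with hV
      have hVpos : 0 < V := Finset.prod_pos fun g _ => pow_pos (hvpos g) _
      -- V ^ (ρ - 1) = d₁ ^ α₁ * d₂ ^ α₂ * d₃ ^ α₃
      have hVρ : V ^ (ρ - 1) = d₁ ^ α₁ * d₂ ^ α₂ * d₃ ^ α₃ := by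
        rw [hV, ← Real.finsetProd_rpow _ _ (fun g _ => (pow_pos (hvpos g) _).le),
          hd₁, hd₂, hd₃,
          ← Real.finsetProd_rpow _ _ (fun g _ => (pow_pos (h1' g) _).le),
          ← Real.finsetProd_rpow _ _ (fun g _ => (pow_pos (h2' g) _).le),
          ← Real.finsetProd_rpow _ _ (fun g _ => (pow_pos (h3' g) _).le),
          ← Finset.prod_mul_distrib, ← Finset.prod_mul_distrib]
        apply Finset.prod_congr rfl
        intro g _
        have e : ∀ (y s : ℝ), 0 ≤ y → (y ^ (m g)) ^ s = (y ^ s) ^ (m g) := by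
          intro y s hy
          rw [← Real.rpow_natCast, ← Real.rpow_mul hy, mul_comm,
            Real.rpow_mul hy, Real.rpow_natCast]
        rw [e _ _ (hvpos g).le, e _ _ (h1' g).le, e _ _ (h2' g).le, e _ _ (h3' g).le,
          ← mul_pow, ← mul_pow]
        congr 1
        simp only [hv]
        rw [← Real.rpow_mul (hwpos g).le, one_div, inv_mul_cancel₀ hρ'.ne', Real.rpow_one]
      have hfinal : ((S.card : ℝ) * V) ^ (ρ - 1) ≤ 1 := by
        rw [Real.mul_rpow hScard.le hVpos.le, hVρ, Real.rpow_sub_one hScard.ne']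
        have k2 : (S.card : ℝ) ^ ρ / S.card ≤ n₁ ^ α₁ * n₂ ^ α₂ * n₃ ^ α₃ := by
          rw [div_le_iff₀ hScard]
          refine key.trans (le_of_eq ?_)
          ring
        have k3 : n₁ ^ α₁ * n₂ ^ α₂ * n₃ ^ α₃ * (d₁ ^ α₁ * d₂ ^ α₂ * d₃ ^ α₃) ≤ 1 := by
          have e1 : (n₁ * d₁) ^ α₁ ≤ 1 := Real.rpow_le_one (by positivity) c1 hα₁0
          have e2 : (n₂ * d₂) ^ α₂ ≤ 1 := Real.rpow_le_one (by positivity) c2 hα₂0
          have e3 : (n₃ * d₃) ^ α₃ ≤ 1 := Real.rpow_le_one (by positivity) c3 hα₃0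
          calc n₁ ^ α₁ * n₂ ^ α₂ * n₃ ^ α₃ * (d₁ ^ α₁ * d₂ ^ α₂ * d₃ ^ α₃)
              = (n₁ * d₁) ^ α₁ * (n₂ * d₂) ^ α₂ * (n₃ * d₃) ^ α₃ := by
                rw [Real.mul_rpow n₁0 d₁pos.le, Real.mul_rpow n₂0 d₂pos.le,
                  Real.mul_rpow n₃0 d₃pos.le]
                ring
            _ ≤ 1 * 1 * 1 := by gcongr
            _ = 1 := by norm_num
        calc (S.card : ℝ) ^ ρ / S.card * (d₁ ^ α₁ * d₂ ^ α₂ * d₃ ^ α₃)
            ≤ n₁ ^ α₁ * n₂ ^ α₂ * n₃ ^ α₃ * (d₁ ^ α₁ * d₂ ^ α₂ * d₃ ^ α₃) := by gcongr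
          _ ≤ 1 := k3
      by_contra hcon
      push Not at hcon
      have := Real.one_lt_rpow hcon hρ'
      linarith
    calc ∑ m ∈ Fintype.piFinset (fun _ : G => Finset.range (N + 1)),
          ∑ s ∈ Finset.univ.filter (fun s : Fin N → G => typ s = m), ∏ i, v (s i)
        ≤ ∑ _m ∈ Fintype.piFinset (fun _ : G => Finset.range (N + 1)), (1 : ℝ) :=
          Finset.sum_le_sum hfib
      _ = ((N : ℝ) + 1) ^ Fintype.card G := by
          rw [Finset.sum_const, Fintype.card_piFinset]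
          simp
  · intro s _
    rw [Fintype.mem_piFinset]
    intro g
    rw [Finset.mem_range]
    have : typ s g ≤ N := by
      unfold typ
      calc #{i | s i = g} ≤ (Finset.univ : Finset (Fin N)).card := Finset.card_le_card (Finset.filter_subset _ _)
        _ = N := by simp
    omega

end Vale.Agent.P141
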